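import Vale.Agent.P161.Sub

open MeasureTheory Vale.Agent.P161

theorem Vale.Agent.Results.P161.OffCritical.result {V : Type} (G : SimpleGraph V) (d : ℕ)
    (hd : 3 ≤ d) (hT : G.IsTree) (hreg : ∀ v, (G.neighborSet v).encard = d) (β : ℝ) (hβ : 0 ≤ β) :
    (∃ μ, IsFreeIsing G (Real.tanh β) μ) ∧
      ∀ μ, IsFreeIsing G (Real.tanh β) μ →
        (Real.tanh β < 1 / √(d - 1) → IsFactorOfIID G μ) ∧
        (1 / √(d - 1) < Real.tanh β → ¬ IsFactorOfIID G μ) := by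
  obtain ⟨_, hG⟩ := exists_reg hd hT hreg
  have h0 := tanh_nonneg' hβ
  obtain ⟨h1, -, h3⟩ := sq_lt_iff hd h0
  exact ⟨exists_isFreeIsing hT (abs_le.2 ⟨by linarith, (Real.tanh_lt_one β).le⟩), fun μ hμ =>
    ⟨fun h => fiid_sub hG hβ (h1 h) hμ, fun h => not_factor_of_gt hT hd hreg (h3 h) hμ⟩⟩
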